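import Vale.Agent.P267.H451.Der

/-!
# P267: curvature of a rank one projector from a local frame (copy of helper995, H995/Mat.lean)
-/

open scoped Manifold ContDiff ComplexConjugate Matrix
open Set Filter Topology

noncomputable section

namespace Vale.Agent.P267.H451

open Vale.Agent.P267.FL

variable {X : Type*} [TopologicalSpace X] [ChartedSpace C2 X]
variable {ι : Type*} [Fintype ι] [DecidableEq ι]

/-- purely algebraic identity -/
theorem trace_comm_vec (u0 v0 u1 v1 u2 v2 : ι → ℂ) (h0 : v0 ⬝ᵥ u0 = 1)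
    (h1 : v1 ⬝ᵥ u0 + v0 ⬝ᵥ u1 = 0) (h2 : v2 ⬝ᵥ u0 + v0 ⬝ᵥ u2 = 0) :
    (Matrix.vecMulVec u0 v0 *
      ((Matrix.vecMulVec u0 v1 + Matrix.vecMulVec u1 v0) *
        (Matrix.vecMulVec u0 v2 + Matrix.vecMulVec u2 v0) -
      (Matrix.vecMulVec u0 v2 + Matrix.vecMulVec u2 v0) *
        (Matrix.vecMulVec u0 v1 + Matrix.vecMulVec u1 v0))).trace = v1 ⬝ᵥ u2 - v2 ⬝ᵥ u1 := by
  have h3 : v1 ⬝ᵥ u0 = -(v0 ⬝ᵥ u1) := by linear_combination h1
  have h4 : v2 ⬝ᵥ u0 = -(v0 ⬝ᵥ u2) := by linear_combination h2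
  have h0' : u0 ⬝ᵥ v0 = 1 := by rw [dotProduct_comm]; exact h0
  have key : ∀ a b c d : ι → ℂ, Matrix.vecMulVec a b * Matrix.vecMulVec c d =
      (b ⬝ᵥ c) • Matrix.vecMulVec a d := by
    intro a b c d
    rw [Matrix.vecMulVec_mul_vecMulVec, Matrix.vecMulVec_smul]
  have h5 : u0 ⬝ᵥ v1 = -(v0 ⬝ᵥ u1) := by rw [dotProduct_comm]; exact h3
  have h6 : u0 ⬝ᵥ v2 = -(v0 ⬝ᵥ u2) := by rw [dotProduct_comm]; exact h4
  simp only [mul_add, add_mul, mul_sub, key, Matrix.mul_smul,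
    Matrix.trace_add, Matrix.trace_sub, Matrix.trace_smul, Matrix.trace_vecMulVec, smul_eq_mul,
    h0, h3, h4, h0', h5, h6]
  ring

/-- the matrix of derivatives -/
def DM (T : (C2 →L[ℝ] ℂ) →ₗ[ℂ] ℂ) (x : X) (P : X → Matrix ι ι ℂ) : Matrix ι ι ℂ :=
  Matrix.of fun i j => DT T x fun y => P y i j

/-- value of `tr (P dP∧dP)` on a pair of functionals -/
def curP (P : X → Matrix ι ι ℂ) (x : X) (T T' : (C2 →L[ℝ] ℂ) →ₗ[ℂ] ℂ) : ℂ :=
  (P x * (DM T x P * DM T' x P - DM T' x P * DM T x P)).trace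

theorem curP_frame {x : X} {P : X → Matrix ι ι ℂ} {u v : ι → X → ℂ}
    (hu : ∀ a, DAt (u a) x) (hv : ∀ a, DAt (v a) x)
    (hP : ∀ a b, (fun y => P y a b) =ᶠ[𝓝 x] fun y => u a y * v b y)
    (h1 : (fun y => ∑ a, v a y * u a y) =ᶠ[𝓝 x] fun _ => 1)
    (T T' : (C2 →L[ℝ] ℂ) →ₗ[ℂ] ℂ) :
    curP P x T T' = ∑ b, (DT T x (v b) * DT T' x (u b) - DT T' x (v b) * DT T x (u b)) := by
  have hP0 : P x = Matrix.vecMulVec (fun a => u a x) (fun a => v a x) := by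
    ext a b
    exact (hP a b).eq_of_nhds
  have hDM : ∀ S : (C2 →L[ℝ] ℂ) →ₗ[ℂ] ℂ, DM S x P =
      Matrix.vecMulVec (fun a => u a x) (fun a => DT S x (v a)) +
        Matrix.vecMulVec (fun a => DT S x (u a)) (fun a => v a x) := by
    intro S
    ext a b
    have : DM S x P a b = DT S x (fun y => u a y * v b y) := DT_congr S (hP a b)
    rw [this, DT_mul S (hu a) (hv b)]
    rfl
  have hrel : ∀ S : (C2 →L[ℝ] ℂ) →ₗ[ℂ] ℂ,
      (fun a => DT S x (v a)) ⬝ᵥ (fun a => u a x) +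
        (fun a => v a x) ⬝ᵥ (fun a => DT S x (u a)) = 0 := by
    intro S
    have h2 : DT S x (fun y => ∑ a, v a y * u a y) = 0 := by
      rw [DT_congr S h1, DT_const]
    rw [DT_sum S (fun a _ => (hv a).mul (hu a))] at h2
    rw [← h2]
    simp only [dotProduct]
    rw [← Finset.sum_add_distrib]
    refine Finset.sum_congr rfl fun a _ => ?_
    rw [DT_mul S (hv a) (hu a)]
    ring
  have h0 : (fun a => v a x) ⬝ᵥ (fun a => u a x) = 1 := h1.eq_of_nhds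
  unfold curP
  rw [hP0, hDM T, hDM T', trace_comm_vec _ _ _ _ _ _ h0 (hrel T) (hrel T')]
  simp only [dotProduct]
  rw [← Finset.sum_sub_distrib]

end Vale.Agent.P267.H451
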