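import Vale.Agent.P267.H399.Calc
import Vale.Agent.P267.H451.Mat

/-!
# P267 / H451: smooth functions near a point, rank one projectors and frames
-/

set_option linter.unusedVariables false
set_option linter.unusedSectionVars false

open scoped Manifold ContDiff ComplexConjugate Matrix
open Set Filter Topology

noncomputable section

namespace Vale.Agent.P267.H451

open Vale.Agent.P267.FL

variable {X : Type*} [TopologicalSpace X] [ChartedSpace C2 X]

section Sm

variable {V : Type*} [NormedAddCommGroup V] [NormedSpace ℂ V]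
variable {W : Type*} [NormedAddCommGroup W] [NormedSpace ℂ W]

/-- `f` is (real) smooth at `x`, in the preferred chart. -/
def Sm (f : X → V) (x : X) : Prop :=
  ContDiffAt ℝ ∞ (fun z => f ((chartAt C2 x).symm z)) (chartAt C2 x x)

/-- `f` is holomorphic at `x`, in the preferred chart. -/
def Hol (f : X → V) (x : X) : Prop :=
  AnalyticAt ℂ (fun z => f ((chartAt C2 x).symm z)) (chartAt C2 x x)

theorem Sm.congr {f g : X → V} {x : X} (hf : Sm f x) (h : g =ᶠ[𝓝 x] f) : Sm g x :=
  ContDiffAt.congr_of_eventuallyEq hf ((tendsto_chart_symm x).eventually h)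

theorem Hol.congr {f g : X → V} {x : X} (hf : Hol f x) (h : g =ᶠ[𝓝 x] f) : Hol g x := by
  have h1 : (fun z => f ((chartAt C2 x).symm z)) =ᶠ[𝓝 (chartAt C2 x x)]
      (fun z => g ((chartAt C2 x).symm z)) := (tendsto_chart_symm x).eventually h.symm
  exact AnalyticAt.congr hf h1

theorem Hol.sm [CompleteSpace V] {f : X → V} {x : X} (hf : Hol f x) : Sm f x :=
  (AnalyticAt.contDiffAt (n := ∞) hf).restrict_scalars ℝ

theorem Sm.dat {f : X → ℂ} {x : X} (hf : Sm f x) : DAt f x :=
  ContDiffAt.differentiableAt hf (by simp)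

variable [IsManifold 𝓘(ℂ, C2) ω X]

theorem Sm.chart {f : X → V} {x : X} (hf : Sm f x) {e : Ch X} (he : e ∈ atlas C2 X)
    (hx : x ∈ e.source) : ContDiffAt ℝ ∞ (fun z => f (e.symm z)) (e x) := by
  have h := loc0_contDiffAt_change (n := ∞) (κ := 0) he (chart_mem_atlas C2 x) hx
    (mem_chart_source C2 x) (s := f) (by rw [LB.loc0_zero]; exact hf)
  rw [LB.loc0_zero] at h
  exact h

theorem Sm.of_chart {f : X → V} {x : X} {e : Ch X} (he : e ∈ atlas C2 X)
    (hx : x ∈ e.source) (h : ContDiffAt ℝ ∞ (fun z => f (e.symm z)) (e x)) : Sm f x := by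
  have h := loc0_contDiffAt_change (n := ∞) (κ := 0) (chart_mem_atlas C2 x) he
    (mem_chart_source C2 x) hx (s := f) (by rw [LB.loc0_zero]; exact h)
  rw [LB.loc0_zero] at h
  exact h

theorem Hol.chart {f : X → V} {x : X} (hf : Hol f x) {e : Ch X} (he : e ∈ atlas C2 X)
    (hx : x ∈ e.source) : AnalyticAt ℂ (fun z => f (e.symm z)) (e x) := by
  have h1 := trans_analyticAt he (chart_mem_atlas C2 x) hx (mem_chart_source C2 x)
  have h2 : AnalyticAt ℂ (fun z => f ((chartAt C2 x).symm z))
      ((fun z => chartAt C2 x (e.symm z)) (e x)) := by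
    have : (fun z => chartAt C2 x (e.symm z)) (e x) = chartAt C2 x x := by
      simp only [e.left_inv hx]
    rw [this]
    exact hf
  have h3 := AnalyticAt.comp (g := fun z => f ((chartAt C2 x).symm z))
    (f := fun z => chartAt C2 x (e.symm z)) (x := e x) h2 h1
  refine h3.congr ?_
  filter_upwards [(isOpen_trans e (chartAt C2 x)).mem_nhds
    (mem_trans hx (mem_chart_source C2 x))] with z hz
  simp only [Function.comp]
  rw [(chartAt C2 x).left_inv hz.2]

theorem Hol.of_chart {f : X → V} {x : X} {e : Ch X} (he : e ∈ atlas C2 X)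
    (hx : x ∈ e.source) (h : AnalyticAt ℂ (fun z => f (e.symm z)) (e x)) : Hol f x := by
  have h1 := trans_analyticAt (chart_mem_atlas C2 x) he (mem_chart_source C2 x) hx
  have h2 : AnalyticAt ℂ (fun z => f (e.symm z))
      ((fun z => e ((chartAt C2 x).symm z)) (chartAt C2 x x)) := by
    have : (fun z => e ((chartAt C2 x).symm z)) (chartAt C2 x x) = e x := by
      simp only [(chartAt C2 x).left_inv (mem_chart_source C2 x)]
    rw [this]
    exact h
  have h3 := AnalyticAt.comp (g := fun z => f (e.symm z))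
    (f := fun z => e ((chartAt C2 x).symm z)) (x := chartAt C2 x x) h2 h1
  refine AnalyticAt.congr h3 ?_
  filter_upwards [(isOpen_trans (chartAt C2 x) e).mem_nhds
    (mem_trans (mem_chart_source C2 x) hx)] with z hz
  simp only [Function.comp]
  rw [e.left_inv hz.2]

/-- holomorphy at a point is an open condition -/
theorem Hol.eventually [CompleteSpace V] {f : X → V} {x : X} (hf : Hol f x) : ∀ᶠ y in 𝓝 x, Hol f y := by
  have h1 : ∀ᶠ z in 𝓝 (chartAt C2 x x),
      AnalyticAt ℂ (fun z => f ((chartAt C2 x).symm z)) z := AnalyticAt.eventually_analyticAt hf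
  have h2 := ((chartAt C2 x).continuousAt (mem_chart_source C2 x)).eventually h1
  filter_upwards [h2, (chartAt C2 x).open_source.mem_nhds (mem_chart_source C2 x)] with y hy hy'
  exact Hol.of_chart (chart_mem_atlas C2 x) hy' hy

theorem reg0_of_sm {f : X → V} (h : ∀ x, Sm f x) : Reg0 ∞ 0 f := by
  rw [reg0_iff]
  intro x
  rw [LB.loc0_zero]
  exact h x

theorem sm_of_reg0 {f : X → V} (h : Reg0 ∞ 0 f) (x : X) : Sm f x := by
  have := reg0_iff.1 h x
  rw [LB.loc0_zero] at this
  exact this

theorem Sm.continuousAt {f : X → V} {x : X} (hf : Sm f x) : ContinuousAt f x := by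
  have h1 : ContinuousAt (fun z => f ((chartAt C2 x).symm z)) (chartAt C2 x x) :=
    ContDiffAt.continuousAt hf
  have h2 := ContinuousAt.comp (g := fun z => f ((chartAt C2 x).symm z)) (f := chartAt C2 x)
    h1 ((chartAt C2 x).continuousAt (mem_chart_source C2 x))
  refine h2.congr ?_
  filter_upwards [(chartAt C2 x).open_source.mem_nhds (mem_chart_source C2 x)] with y hy
  simp only [Function.comp]
  rw [(chartAt C2 x).left_inv hy]

end Sm

section SmAlg

variable {V : Type*} [NormedAddCommGroup V] [NormedSpace ℂ V] {x : X}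

theorem Sm.add {f g : X → V} (hf : Sm f x) (hg : Sm g x) : Sm (fun y => f y + g y) x :=
  ContDiffAt.add hf hg

theorem Sm.sub {f g : X → V} (hf : Sm f x) (hg : Sm g x) : Sm (fun y => f y - g y) x :=
  ContDiffAt.sub hf hg

theorem Sm.neg {f : X → V} (hf : Sm f x) : Sm (fun y => -f y) x := ContDiffAt.neg hf

theorem Sm.smul {f : X → ℂ} {g : X → V} (hf : Sm f x) (hg : Sm g x) : Sm (fun y => f y • g y) x :=
  ContDiffAt.smul hf hg

theorem Sm.mul {f g : X → ℂ} (hf : Sm f x) (hg : Sm g x) : Sm (fun y => f y * g y) x :=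
  ContDiffAt.mul hf hg

theorem Sm.const (c : V) : Sm (fun _ : X => c) x := contDiffAt_const

theorem Sm.sum {κ : Type*} {s : Finset κ} {f : κ → X → V} (hf : ∀ i ∈ s, Sm (f i) x) :
    Sm (fun y => ∑ i ∈ s, f i y) x := ContDiffAt.sum hf

theorem Sm.conj {f : X → ℂ} (hf : Sm f x) : Sm (fun y => conj (f y)) x :=
  (Complex.conjCLE.contDiff.contDiffAt).comp _ hf

theorem Sm.inv {f : X → ℂ} (hf : Sm f x) (h : f x ≠ 0) : Sm (fun y => (f y)⁻¹) x := by
  refine ContDiffAt.inv hf ?_
  rwa [(chartAt C2 x).left_inv (mem_chart_source C2 x)]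

theorem Sm.div {f g : X → ℂ} (hf : Sm f x) (hg : Sm g x) (h : g x ≠ 0) :
    Sm (fun y => f y / g y) x := by
  simp only [div_eq_mul_inv]
  exact hf.mul (hg.inv h)

theorem sm_euclid {ι : Type} [Fintype ι] {v : X → EuclideanSpace ℂ ι} :
    Sm v x ↔ ∀ i, Sm (fun y => v y i) x := by
  unfold Sm
  constructor
  · intro h i
    exact ((PiLp.proj (𝕜 := ℝ) 2 (fun _ : ι => ℂ) i).contDiff.contDiffAt).comp _ h
  · intro h
    have h1 : ContDiffAt ℝ ∞ (fun z => fun i => v ((chartAt C2 x).symm z) i) (chartAt C2 x x) :=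
      contDiffAt_pi.2 h
    exact ((PiLp.continuousLinearEquiv 2 ℝ (fun _ : ι => ℂ)).symm.contDiff.contDiffAt).comp _ h1

/-- `∂̄` of a holomorphic function vanishes -/
theorem Hol.dbar0 {f : X → V} (hf : Hol f x) (i : Fin 2) : FL.dbar0 0 f x i = 0 := by
  unfold FL.dbar0
  rw [LB.loc0_zero]
  exact dzb_of_hol (AnalyticAt.differentiableAt hf) i

theorem dbar0_congr {f g : X → V} (h : f =ᶠ[𝓝 x] g) (i : Fin 2) :
    FL.dbar0 0 f x i = FL.dbar0 0 g x i := by
  unfold FL.dbar0
  rw [LB.loc0_zero, LB.loc0_zero]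
  have h1 : f ∘ (chartAt C2 x).symm =ᶠ[𝓝 (chartAt C2 x x)] g ∘ (chartAt C2 x).symm :=
    (tendsto_chart_symm x).eventually h
  exact dzb_congr h1 i

theorem dbar0_smul {f : X → ℂ} {g : X → V} (hf : Sm f x) (hg : Sm g x) (i : Fin 2) :
    FL.dbar0 0 (fun y => f y • g y) x i = f x • FL.dbar0 0 g x i + FL.dbar0 0 f x i • g x := by
  unfold FL.dbar0
  rw [LB.loc0_zero, LB.loc0_zero, LB.loc0_zero]
  have := dzb_smul (V := V) (ContDiffAt.differentiableAt hf (by simp))
    (ContDiffAt.differentiableAt hg (by simp)) i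
  simp only [(chartAt C2 x).left_inv (mem_chart_source C2 x)] at this
  exact this

theorem dbar0_euclid {ι : Type} [Fintype ι] {v : X → EuclideanSpace ℂ ι} (hv : Sm v x)
    (i : Fin 2) (k : ι) : FL.dbar0 0 v x i k = FL.dbar0 0 (fun y => v y k) x i := by
  unfold FL.dbar0
  rw [LB.loc0_zero, LB.loc0_zero]
  have := dzb_clm (PiLp.proj (𝕜 := ℂ) 2 (fun _ : ι => ℂ) k)
    (ContDiffAt.differentiableAt hv (by simp)) i
  exact this.symm

end SmAlg

end Vale.Agent.P267.H451
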