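import Mathlib

/-!
# P267 / H451: linear algebra of rank one orthogonal projectors
-/

set_option linter.unusedSectionVars false

open scoped ComplexConjugate Matrix ComplexOrder

noncomputable section

namespace Vale.Agent.P267.H451

variable {ι : Type*} [Fintype ι] [DecidableEq ι]

/-- `∑ v_k conj(v_k)` -/
def nsqv (v : ι → ℂ) : ℂ := ∑ k, v k * conj (v k)

/-- the rank one projector onto the line spanned by `v` -/
def proj1 (v : ι → ℂ) : Matrix ι ι ℂ := Matrix.of fun i j => v i * (conj (v j) / nsqv v)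

theorem nsqv_eq (v : ι → ℂ) : nsqv v = ((∑ k, ‖v k‖ ^ 2 : ℝ) : ℂ) := by
  unfold nsqv
  push_cast
  refine Finset.sum_congr rfl fun k _ => ?_
  rw [Complex.mul_conj, Complex.normSq_eq_norm_sq]
  push_cast
  rfl

theorem nsqv_pos {v : ι → ℂ} (hv : v ≠ 0) : 0 < (∑ k, ‖v k‖ ^ 2 : ℝ) := by
  obtain ⟨k, hk⟩ := Function.ne_iff.1 hv
  refine Finset.sum_pos' (fun i _ => by positivity) ⟨k, Finset.mem_univ _, ?_⟩
  have : 0 < ‖v k‖ := norm_pos_iff.2 (by simpa using hk)
  positivity

theorem nsqv_ne {v : ι → ℂ} (hv : v ≠ 0) : nsqv v ≠ 0 := by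
  rw [nsqv_eq]
  exact_mod_cast (nsqv_pos hv).ne'

theorem conj_nsqv (v : ι → ℂ) : conj (nsqv v) = nsqv v := by
  rw [nsqv_eq, Complex.conj_ofReal]

theorem proj1_eq (v : ι → ℂ) :
    proj1 v = Matrix.vecMulVec v (fun j => conj (v j) / nsqv v) := by
  ext i j
  rfl

theorem proj1_herm (v : ι → ℂ) : (proj1 v)ᴴ = proj1 v := by
  ext i j
  simp only [proj1, Matrix.conjTranspose_apply, Matrix.of_apply, RCLike.star_def, map_mul, map_div₀,
    Complex.conj_conj, conj_nsqv]
  ring

theorem dot_self {v : ι → ℂ} (hv : v ≠ 0) : (fun j => conj (v j) / nsqv v) ⬝ᵥ v = 1 := by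
  have h : (fun j => conj (v j) / nsqv v) ⬝ᵥ v = nsqv v / nsqv v := by
    conv_rhs => rw [nsqv, Finset.sum_div]
    unfold dotProduct
    refine Finset.sum_congr rfl fun k _ => ?_
    have : (∑ k, v k * conj (v k)) = nsqv v := rfl
    rw [this]
    ring
  rw [h, div_self (nsqv_ne hv)]

theorem proj1_mulVec {v : ι → ℂ} (hv : v ≠ 0) : (proj1 v).mulVec v = v := by
  rw [proj1_eq, Matrix.vecMulVec_mulVec, dot_self hv]
  simp

theorem proj1_idem {v : ι → ℂ} (hv : v ≠ 0) : proj1 v * proj1 v = proj1 v := by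
  rw [proj1_eq, Matrix.vecMulVec_mul_vecMulVec, dot_self hv]
  simp

theorem proj1_trace {v : ι → ℂ} (hv : v ≠ 0) : (proj1 v).trace = 1 := by
  rw [proj1_eq, Matrix.trace_vecMulVec, dotProduct_comm, dot_self hv]

theorem proj1_act (v w : ι → ℂ) :
    (proj1 v).mulVec w = (∑ k, conj (v k) / nsqv v * w k) • v := by
  rw [proj1_eq, Matrix.vecMulVec_mulVec, op_smul_eq_smul]
  rfl

theorem proj1_smul {v : ι → ℂ} {c : ℂ} (hc : c ≠ 0) : proj1 (c • v) = proj1 v := by
  have h : nsqv (c • v) = (c * conj c) * nsqv v := by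
    unfold nsqv
    rw [Finset.mul_sum]
    refine Finset.sum_congr rfl fun k _ => ?_
    simp only [Pi.smul_apply, smul_eq_mul, map_mul]
    ring
  ext i j
  simp only [proj1, Matrix.of_apply, Pi.smul_apply, smul_eq_mul, map_mul, h]
  have hc' : conj c ≠ 0 := by simpa using hc
  by_cases h0 : nsqv v = 0
  · rw [h0]; simp
  · field_simp

/-- a hermitian idempotent of trace one is the projector onto any nonzero vector it fixes -/
theorem eq_proj1 {P : Matrix ι ι ℂ} (h1 : Pᴴ = P) (h2 : P * P = P) (h3 : P.trace = 1) {v : ι → ℂ}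
    (hv : v ≠ 0) (h : P.mulVec v = v) : P = proj1 v := by
  have h4 : P * proj1 v = proj1 v := by
    rw [proj1_eq, Matrix.mul_vecMulVec, h]
  have h5 : proj1 v * P = proj1 v := by
    have := congrArg Matrix.conjTranspose h4
    rwa [Matrix.conjTranspose_mul, proj1_herm, h1] at this
  have h6 : (P - proj1 v)ᴴ = P - proj1 v := by
    rw [Matrix.conjTranspose_sub, h1, proj1_herm]
  have h7 : (P - proj1 v) * (P - proj1 v) = P - proj1 v := by
    rw [sub_mul, mul_sub, mul_sub, h2, h4, h5, proj1_idem hv]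
    abel
  have h8 : ((P - proj1 v)ᴴ * (P - proj1 v)).trace = 0 := by
    rw [h6, h7, Matrix.trace_sub, h3, proj1_trace hv, sub_self]
  exact sub_eq_zero.1 (Matrix.trace_conjTranspose_mul_self_eq_zero_iff.1 h8)

end Vale.Agent.P267.H451
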