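import Vale.Agent.P267.H399.Wirt
import Vale.Agent.P267.H451.Lin

/-!
# P267 / H451: coordinate computations for a frame of a line bundle
-/

set_option linter.unusedSectionVars false

open scoped ContDiff ComplexConjugate
open Set Filter Topology

noncomputable section

namespace Vale.Agent.P267.H451

open Vale.Agent.P267.FL

variable {ι : Type*} [Fintype ι] [DecidableEq ι]

/-- `∑ |u_k|²` -/
def gg (u : ι → C2 → ℂ) (z : C2) : ℂ := nsqv fun k => u k z

/-- `conj(u_k)/|u|²` -/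
def ww (u : ι → C2 → ℂ) (k : ι) (z : C2) : ℂ := conj (u k z) / gg u z

section

variable {u : ι → C2 → ℂ} {U : Set C2} (hU : IsOpen U) (hu : ∀ k, ContDiffOn ℝ ∞ (u k) U)
  (hg : ∀ z ∈ U, gg u z ≠ 0)

include hu in
theorem contDiffOn_cj (k : ι) : ContDiffOn ℝ ∞ (fun z => conj (u k z)) U :=
  Complex.conjCLE.contDiff.comp_contDiffOn (hu k)

include hu in
theorem contDiffOn_gg : ContDiffOn ℝ ∞ (gg u) U := by
  unfold gg nsqv
  exact ContDiffOn.sum fun k _ => (hu k).mul (contDiffOn_cj hu k)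

include hu hg in
theorem contDiffOn_ww (k : ι) : ContDiffOn ℝ ∞ (ww u k) U := by
  unfold ww
  simp only [div_eq_mul_inv]
  exact (contDiffOn_cj hu k).mul ((contDiffOn_gg hu).inv hg)

theorem da_of_on {f : C2 → ℂ} (hU : IsOpen U) (hf : ContDiffOn ℝ ∞ f U) {z : C2} (hz : z ∈ U) :
    DifferentiableAt ℝ f z :=
  (hf.contDiffAt (hU.mem_nhds hz)).differentiableAt (by simp)

include hU hu in
theorem da_dz (k : ι) (i : Fin 2) {z : C2} (hz : z ∈ U) : DifferentiableAt ℝ (dz i (u k)) z :=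
  da_of_on hU (contDiffOn_dz hU (hu k) (by simp) i) hz

include hU hu in
theorem da_dzb (k : ι) (i : Fin 2) {z : C2} (hz : z ∈ U) : DifferentiableAt ℝ (dzb i (u k)) z :=
  da_of_on hU (contDiffOn_dzb hU (hu k) (by simp) i) hz

include hu hg in
theorem contDiffOn_sum_ww (i : Fin 2) (hU : IsOpen U) :
    ContDiffOn ℝ ∞ (fun z => ∑ k, ww u k z * dzb i (u k) z) U :=
  ContDiffOn.sum fun k _ => (contDiffOn_ww hu hg k).mul (contDiffOn_dzb hU (hu k) (by simp) i)

include hU hu in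
theorem dz_gg (i : Fin 2) {z : C2} (hz : z ∈ U) :
    dz i (gg u) z = ∑ k, (u k z * conj (dzb i (u k) z) + dz i (u k) z * conj (u k z)) := by
  have h1 : dz i (gg u) z = dz i (fun y => ∑ k, u k y * conj (u k y)) z := rfl
  rw [h1, dz_sum]
  · refine Finset.sum_congr rfl fun k _ => ?_
    rw [dz_mul (da_of_on hU (hu k) hz) (da_of_on hU (contDiffOn_cj hu k) hz),
      dz_conj (da_of_on hU (hu k) hz)]
  · intro k _
    exact (da_of_on hU (hu k) hz).mul (da_of_on hU (contDiffOn_cj hu k) hz)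

theorem two_le_infty : (2 : WithTop ℕ∞) ≤ ∞ := by
  have : ((2 : ℕ∞) : WithTop ℕ∞) ≤ ((⊤ : ℕ∞) : WithTop ℕ∞) := WithTop.coe_le_coe.2 le_top
  exact this

/-- (0,2)-part -/
theorem coord02 (hU : IsOpen U) (hu : ∀ k, ContDiffOn ℝ ∞ (u k) U)
    (hg : ∀ z ∈ U, gg u z ≠ 0) {z : C2} (hz : z ∈ U) :
    dzb 0 (fun y => ∑ k, ww u k y * dzb 1 (u k) y) z -
      dzb 1 (fun y => ∑ k, ww u k y * dzb 0 (u k) y) z =
    ∑ k, (dzb 0 (ww u k) z * dzb 1 (u k) z - dzb 1 (ww u k) z * dzb 0 (u k) z) := by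
  have h : ∀ i j : Fin 2, dzb i (fun y => ∑ k, ww u k y * dzb j (u k) y) z =
      ∑ k, (ww u k z * dzb i (dzb j (u k)) z + dzb i (ww u k) z * dzb j (u k) z) := by
    intro i j
    rw [dzb_sum]
    · refine Finset.sum_congr rfl fun k _ => ?_
      rw [dzb_mul (da_of_on hU (contDiffOn_ww hu hg k) hz) (da_dzb hU hu k j hz)]
    · intro k _
      exact (da_of_on hU (contDiffOn_ww hu hg k) hz).mul (da_dzb hU hu k j hz)
  rw [h, h, ← Finset.sum_sub_distrib]
  refine Finset.sum_congr rfl fun k _ => ?_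
  have hc : ContDiffAt ℝ 2 (u k) z :=
    ((hu k).contDiffAt (hU.mem_nhds hz)).of_le two_le_infty
  rw [dzb_dzb_comm hc 0 1]
  ring

/-- (1,1)-part -/
theorem coord11 (hU : IsOpen U) (hu : ∀ k, ContDiffOn ℝ ∞ (u k) U)
    (hg : ∀ z ∈ U, gg u z ≠ 0) {z : C2} (hz : z ∈ U) (i j : Fin 2) :
    ∑ k, (dz i (ww u k) z * dzb j (u k) z - dzb j (ww u k) z * dz i (u k) z) -
      dz i (fun y => ∑ k, ww u k y * dzb j (u k) y) z -
      dzb j (fun y => conj (∑ k, ww u k y * dzb i (u k) y)) z =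
    -dzb j (fun y => (gg u y)⁻¹ * dz i (gg u) y) z := by
  have h1 : dz i (fun y => ∑ k, ww u k y * dzb j (u k) y) z =
      ∑ k, (ww u k z * dzb j (dz i (u k)) z + dz i (ww u k) z * dzb j (u k) z) := by
    rw [dz_sum]
    · refine Finset.sum_congr rfl fun k _ => ?_
      have hc : ContDiffAt ℝ 2 (u k) z :=
        ((hu k).contDiffAt (hU.mem_nhds hz)).of_le two_le_infty
      rw [dz_mul (da_of_on hU (contDiffOn_ww hu hg k) hz) (da_dzb hU hu k j hz),
        dz_dzb_comm hc]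
    · intro k _
      exact (da_of_on hU (contDiffOn_ww hu hg k) hz).mul (da_dzb hU hu k j hz)
  have h2 : dzb j (fun y => ∑ k, ww u k y * dz i (u k) y) z =
      ∑ k, (ww u k z * dzb j (dz i (u k)) z + dzb j (ww u k) z * dz i (u k) z) := by
    rw [dzb_sum]
    · refine Finset.sum_congr rfl fun k _ => ?_
      rw [dzb_mul (da_of_on hU (contDiffOn_ww hu hg k) hz) (da_dz hU hu k i hz)]
    · intro k _
      exact (da_of_on hU (contDiffOn_ww hu hg k) hz).mul (da_dz hU hu k i hz)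
  have h3 : ∑ k, (dz i (ww u k) z * dzb j (u k) z - dzb j (ww u k) z * dz i (u k) z) -
      dz i (fun y => ∑ k, ww u k y * dzb j (u k) y) z =
      -dzb j (fun y => ∑ k, ww u k y * dz i (u k) y) z := by
    rw [h1, h2, ← Finset.sum_sub_distrib, ← Finset.sum_neg_distrib]
    refine Finset.sum_congr rfl fun k _ => ?_
    ring
  have hd1 : DifferentiableAt ℝ (fun y => ∑ k, ww u k y * dz i (u k) y) z :=
    DifferentiableAt.fun_sum fun k _ =>
      (da_of_on hU (contDiffOn_ww hu hg k) hz).mul (da_dz hU hu k i hz)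
  have hd2 : DifferentiableAt ℝ (fun y => conj (∑ k, ww u k y * dzb i (u k) y)) z :=
    differentiableAt_conj (DifferentiableAt.fun_sum fun k _ =>
      (da_of_on hU (contDiffOn_ww hu hg k) hz).mul (da_dzb hU hu k i hz))
  have h4 : (fun y => (∑ k, ww u k y * dz i (u k) y) +
      conj (∑ k, ww u k y * dzb i (u k) y)) =ᶠ[𝓝 z] fun y => (gg u y)⁻¹ * dz i (gg u) y := by
    filter_upwards [hU.mem_nhds hz] with y hy
    rw [dz_gg hU hu i hy, map_sum, ← Finset.sum_add_distrib, Finset.mul_sum]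
    refine Finset.sum_congr rfl fun k _ => ?_
    have hgc : conj (gg u y) = gg u y := conj_nsqv _
    simp only [ww, map_mul, map_div₀, Complex.conj_conj, hgc]
    ring
  rw [h3, ← dzb_congr h4 j, dzb_add hd1 hd2]
  ring

/-- `∂ log r = ∂r/r` -/
theorem dz_ofReal_log {r : C2 → ℝ} {z : C2} (hr : DifferentiableAt ℝ r z) (h0 : r z ≠ 0)
    (i : Fin 2) : dz i (fun y => ((Real.log (r y) : ℝ) : ℂ)) z =
      (r z : ℂ)⁻¹ * dz i (fun y => (r y : ℂ)) z := by
  have h1 : HasFDerivAt (fun y => ((Real.log (r y) : ℝ) : ℂ))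
      (Complex.ofRealCLM.comp ((r z)⁻¹ • fderiv ℝ r z)) z :=
    Complex.ofRealCLM.hasFDerivAt.comp z (hr.hasFDerivAt.log h0)
  have h2 : HasFDerivAt (fun y => ((r y : ℝ) : ℂ))
      (Complex.ofRealCLM.comp (fderiv ℝ r z)) z :=
    Complex.ofRealCLM.hasFDerivAt.comp z hr.hasFDerivAt
  unfold dz
  rw [h1.fderiv, h2.fderiv]
  simp only [ContinuousLinearMap.comp_smul, _root_.smul_apply, ContinuousLinearMap.comp_apply,
    Complex.ofRealCLM_apply, smul_eq_mul, Complex.real_smul]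
  push_cast
  ring

/-- `(gg u)⁻¹ ∂ (gg u) = ∂ log |u|²` -/
theorem dz_log_gg (hU : IsOpen U) (hu : ∀ k, ContDiffOn ℝ ∞ (u k) U)
    (hg : ∀ z ∈ U, gg u z ≠ 0) {z : C2} (hz : z ∈ U) (i : Fin 2) :
    dz i (fun y => ((Real.log (∑ k, ‖u k y‖ ^ 2) : ℝ) : ℂ)) z =
      (gg u z)⁻¹ * dz i (gg u) z := by
  have h0 : ∀ y, gg u y = ((∑ k, ‖u k y‖ ^ 2 : ℝ) : ℂ) := fun y => nsqv_eq _
  have h1 : DifferentiableAt ℝ (fun y => (∑ k, ‖u k y‖ ^ 2 : ℝ)) z := by
    have h2 : DifferentiableAt ℝ (fun y => (gg u y).re) z :=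
      Complex.reCLM.differentiableAt.comp z (da_of_on hU (contDiffOn_gg hu) hz)
    have h3 : (fun y => (gg u y).re) = fun y => (∑ k, ‖u k y‖ ^ 2 : ℝ) := by
      funext y
      rw [h0, Complex.ofReal_re]
    rwa [h3] at h2
  have h2 : (∑ k, ‖u k z‖ ^ 2 : ℝ) ≠ 0 := by
    intro h
    apply hg z hz
    rw [h0, h, Complex.ofReal_zero]
  rw [dz_ofReal_log h1 h2 i, h0]
  congr 1
  congr 1
  funext y
  rw [h0]

end

end Vale.Agent.P267.H451
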