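import Vale.Agent.P267.H451.Basic
import Vale.Agent.P267.H451.Coord

/-!
# P267 / H451: the FRAME LEMMA

`FrameAt L a v y`: at the point `y` the function `v` is smooth, nonzero, a section of `L`,
and holomorphic for the structure `a`. If this holds at all points near `x` then the Chern
curvature of `(L, a)` at `x` is `-∂∂̄ log |v|²` (type (1,1)); in particular `a` is integrable.
-/

set_option linter.unusedVariables false
set_option linter.unusedSectionVars false

open scoped Manifold ContDiff ComplexConjugate Matrix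
open Set Filter Topology

noncomputable section

namespace Vale.Agent.P267.H451

open Vale.Agent.P267.FL

variable {X : Type*} [TopologicalSpace X] [ChartedSpace C2 X]
variable {ι : Type} [Fintype ι] [DecidableEq ι]

/-- `v` is a local holomorphic frame at `y` -/
structure FrameAt (L : LB X ι) (a : X → Fin 2 → ℂ) (v : X → EuclideanSpace ℂ ι) (y : X) : Prop where
  sm : Sm v y
  ne : v y ≠ 0
  sec : LB.act (L.P y) (v y) = v y
  hol : ∀ i, L.db0 a 0 v y i = 0

variable {L : LB X ι} {a : X → Fin 2 → ℂ} {v : X → EuclideanSpace ℂ ι}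

theorem ofLp_ne {w : EuclideanSpace ℂ ι} (h : w ≠ 0) : (fun k => w k) ≠ 0 := by
  intro h0
  apply h
  ext k
  exact congrFun h0 k

theorem norm_sq_euclid (w : EuclideanSpace ℂ ι) : ‖w‖ ^ 2 = ∑ k, ‖w k‖ ^ 2 :=
  EuclideanSpace.norm_sq_eq w

theorem FrameAt.P_eq {y : X} (h : FrameAt L a v y) : L.P y = proj1 fun k => v y k := by
  refine eq_proj1 (L.herm y) (L.idem y) (L.tr y) (ofLp_ne h.ne) ?_
  have h1 := h.sec
  have h2 := congrArg WithLp.ofLp h1
  exact h2

theorem act_proj1 (v w : EuclideanSpace ℂ ι) :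
    LB.act (proj1 fun k => v k) w = (∑ k, conj (v k) / nsqv (fun k => v k) * w k) • v := by
  ext j
  have h := congrFun (proj1_act (fun k => v k) (fun k => w k)) j
  exact h

/-- the holomorphic structure is determined by a holomorphic frame -/
theorem FrameAt.a_eq {y : X} (h : FrameAt L a v y) (i : Fin 2) :
    a y i = -∑ k, conj (v y k) / nsqv (fun k => v y k) * dbar0 0 (fun y => v y k) y i := by
  have h1 := h.hol i
  unfold LB.db0 at h1
  rw [h.P_eq, act_proj1, ← add_smul] at h1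
  have h2 := (smul_eq_zero.1 h1).resolve_right h.ne
  simp only [dbar0_euclid h.sm] at h2
  linear_combination h2

/-- conversely -/
theorem frameAt_of {y : X} (h1 : Sm v y) (h2 : v y ≠ 0) (h3 : L.P y = proj1 fun k => v y k)
    (h4 : ∀ i, a y i = -∑ k, conj (v y k) / nsqv (fun k => v y k) *
      dbar0 0 (fun y => v y k) y i) : FrameAt L a v y := by
  refine ⟨h1, h2, ?_, fun i => ?_⟩
  · rw [h3]
    ext j
    exact congrFun (proj1_mulVec (ofLp_ne h2)) j
  · unfold LB.db0
    rw [h3, act_proj1, ← add_smul, h4]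
    simp only [dbar0_euclid h1]
    rw [add_neg_cancel, zero_smul]

section frame

variable [IsManifold 𝓘(ℂ, C2) ω X]

/-- components of the frame in the chart `e` -/
def comp (e : Ch X) (v : X → EuclideanSpace ℂ ι) (k : ι) (z : C2) : ℂ := v (e.symm z) k

variable {N : Set X} (hN : IsOpen N) (h : ∀ y ∈ N, FrameAt L a v y) {e : Ch X}
  (he : e ∈ atlas C2 X)

include h he in
theorem comp_contDiffOn (k : ι) :
    ContDiffOn ℝ ∞ (comp e v k) (e.target ∩ e.symm ⁻¹' N) := by
  intro z hz
  have h1 := (h _ hz.2).sm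
  have h2 := (sm_euclid.1 h1 k).chart he (e.map_target hz.1)
  rw [e.right_inv hz.1] at h2
  exact h2.contDiffWithinAt

include h in
theorem comp_gg {z : C2} (hz : z ∈ e.target ∩ e.symm ⁻¹' N) : gg (comp e v) z ≠ 0 :=
  nsqv_ne (ofLp_ne (h _ hz.2).ne)

include h he in
/-- the holomorphic structure in a chart -/
theorem loc1_a {z : C2} (hz : z ∈ e.target ∩ e.symm ⁻¹' N) (i : Fin 2) :
    loc1 0 e a z i = -∑ k, ww (comp e v) k z * dzb i (comp e v k) z := by
  have h1 : ∀ k, loc1 0 e (dbar0 0 fun y => v y k) z i = dzb i (comp e v k) z := by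
    intro k
    have h2 := (sm_euclid.1 (h _ hz.2).sm k).chart he (e.map_target hz.1)
    rw [e.right_inv hz.1] at h2
    have h3 := loc1_dbar0 (κ := 0) he hz.1 (s := fun y => v y k)
      (by rw [LB.loc0_zero]; exact h2.differentiableAt (by simp)) i
    rw [h3, LB.loc0_zero]
    rfl
  have h2 : ∀ p, a (e.symm z) p = -∑ k, ww (comp e v) k z *
      dbar0 0 (fun y => v y k) (e.symm z) p := fun p => (h _ hz.2).a_eq p
  simp only [← h1]
  unfold loc1
  simp only [h2, Fin.sum_univ_two, zpow_zero, smul_eq_mul, mul_neg, Finset.mul_sum,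
    mul_add, Finset.sum_add_distrib]
  rw [← neg_add]
  congr 1
  congr 1 <;>
  · refine Finset.sum_congr rfl fun k _ => ?_
    ring

include hN in
theorem isOpen_pre : IsOpen (e.target ∩ e.symm ⁻¹' N) :=
  e.isOpen_inter_preimage_symm hN

include hN h he in
theorem loc1_a_contDiffOn : ContDiffOn ℝ ∞ (loc1 0 e a) (e.target ∩ e.symm ⁻¹' N) := by
  rw [contDiffOn_pi]
  intro i
  have h1 := contDiffOn_sum_ww (comp_contDiffOn h he) (fun z hz => comp_gg h hz) i (isOpen_pre hN)
  exact h1.neg.congr fun z hz => loc1_a h he hz i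

theorem mem_pre {x : X} (hx : x ∈ N) : chartAt C2 x x ∈ (chartAt C2 x).target ∩
    (chartAt C2 x).symm ⁻¹' N := by
  refine ⟨mem_chart_target C2 x, ?_⟩
  rw [mem_preimage, (chartAt C2 x).left_inv (mem_chart_source C2 x)]
  exact hx

/-- near a point with a frame, the curvature of the projector in terms of the frame -/
theorem curP_of_frame (hN : IsOpen N) (h : ∀ y ∈ N, FrameAt L a v y) {x : X} (hx : x ∈ N)
    (T T' : (C2 →L[ℝ] ℂ) →ₗ[ℂ] ℂ) :
    curP L.P x T T' = ∑ k,
      (T (fderiv ℝ (ww (comp (chartAt C2 x) v) k) (chartAt C2 x x)) *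
        T' (fderiv ℝ (comp (chartAt C2 x) v k) (chartAt C2 x x)) -
      T' (fderiv ℝ (ww (comp (chartAt C2 x) v) k) (chartAt C2 x x)) *
        T (fderiv ℝ (comp (chartAt C2 x) v k) (chartAt C2 x x))) := by
  have hsm : ∀ k, Sm (fun y => v y k) x := fun k => sm_euclid.1 (h x hx).sm k
  have hw : ∀ k, DAt (fun y => conj (v y k) / nsqv (fun k => v y k)) x := by
    intro k
    have h1 : Sm (fun y => nsqv (fun k => v y k)) x :=
      Sm.sum fun j _ => (hsm j).mul (hsm j).conj
    exact ((hsm k).conj.div h1 (nsqv_ne (ofLp_ne (h x hx).ne))).dat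
  have := curP_frame (P := L.P) (u := fun k y => v y k)
    (v := fun k y => conj (v y k) / nsqv (fun k => v y k)) (x := x) (fun k => (hsm k).dat) hw
    (fun i j => by
      filter_upwards [hN.mem_nhds hx] with y hy
      rw [(h y hy).P_eq]
      rfl)
    (by
      filter_upwards [hN.mem_nhds hx] with y hy
      exact dot_self (ofLp_ne (h y hy).ne)) T T'
  exact this

theorem F02_eq (L : LB X ι) (x : X) : L.F02 x = curP L.P x (tb 0) (tb 1) := by
  unfold LB.F02 curP DM
  simp only [dbar0_eq]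

theorem F20_eq (L : LB X ι) (x : X) : L.F20 x = curP L.P x (tz 0) (tz 1) := rfl

theorem F11_eq (L : LB X ι) (x : X) (k l : Fin 2) : L.F11 x k l = curP L.P x (tz k) (tb l) := by
  unfold LB.F11 curP DM
  simp only [dbar0_eq, Matrix.of_apply]
  rfl

/-- `a` is integrable, with the given (0,2)-curvature -/
theorem frame02 (hN : IsOpen N) (h : ∀ y ∈ N, FrameAt L a v y) {x : X} (hx : x ∈ N) :
    L.F02 x + dbar1 0 a x = 0 := by
  rw [F02_eq, curP_of_frame hN h hx]
  have he := chart_mem_atlas C2 x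
  have hz := mem_pre hx
  have hU := isOpen_pre (e := chartAt C2 x) hN
  have h0 : ∀ i, (fun z => loc1 0 (chartAt C2 x) a z i) =ᶠ[𝓝 (chartAt C2 x x)] fun z =>
      -∑ k, ww (comp (chartAt C2 x) v) k z * dzb i (comp (chartAt C2 x) v k) z := by
    intro i
    filter_upwards [hU.mem_nhds hz] with z hz'
    exact loc1_a h he hz' i
  have h1 := coord02 hU (comp_contDiffOn h he) (fun z hz => comp_gg h hz) hz
  unfold dbar1
  rw [dzb_congr (h0 1), dzb_congr (h0 0), dzb_neg, dzb_neg]
  have h2 : -dzb 0 (fun y => ∑ k, ww (comp (chartAt C2 x) v) k y *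
      dzb 1 (comp (chartAt C2 x) v k) y) (chartAt C2 x x) -
      -dzb 1 (fun y => ∑ k, ww (comp (chartAt C2 x) v) k y *
      dzb 0 (comp (chartAt C2 x) v k) y) (chartAt C2 x x) =
      -(∑ k, (dzb 0 (ww (comp (chartAt C2 x) v) k) (chartAt C2 x x) *
        dzb 1 (comp (chartAt C2 x) v k) (chartAt C2 x x) -
        dzb 1 (ww (comp (chartAt C2 x) v) k) (chartAt C2 x x) *
        dzb 0 (comp (chartAt C2 x) v k) (chartAt C2 x x))) := by
    rw [← h1]
    ring
  rw [h2]
  exact add_neg_cancel _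

/-! ### the other types -/

theorem loc10_neg_conj (e : Ch X) (a : X → Fin 2 → ℂ) (z : C2) (i : Fin 2) :
    loc10 e (fun y i => -conj (a y i)) z i = -conj (loc1 0 e a z i) := by
  unfold loc10 loc1
  simp only [Fin.sum_univ_two, zpow_zero, smul_eq_mul, map_add, map_mul, map_one,
    Complex.conj_conj]
  ring

/-- matrix of `∂_i P` is the adjoint of the matrix of `∂̄_i P` -/
theorem DM_conj (L : LB X ι) (x : X) (i : Fin 2) : DM (tz i) x L.P = (DM (tb i) x L.P)ᴴ := by
  ext k l
  have h1 : DM (tz i) x L.P k l = dz i (fun z => L.P ((chartAt C2 x).symm z) k l)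
    (chartAt C2 x x) := rfl
  have h2 : (DM (tb i) x L.P)ᴴ k l = conj (dzb i (fun z => L.P ((chartAt C2 x).symm z) l k)
    (chartAt C2 x x)) := rfl
  have hd : DAt (fun y => L.P y l k) x := DAt_of_reg (L.smooth l k) x
  rw [h1, h2, ← dz_conj hd]
  congr 1
  funext z
  have h3 := congrFun (congrFun (L.herm ((chartAt C2 x).symm z)) k) l
  rw [Matrix.conjTranspose_apply] at h3
  exact h3.symm

theorem F20_eq_neg_conj (L : LB X ι) (x : X) : L.F20 x = -conj (L.F02 x) := by
  rw [F20_eq, F02_eq]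
  unfold curP
  rw [DM_conj, DM_conj]
  have h1 : conj ((L.P x * (DM (tb 0) x L.P * DM (tb 1) x L.P -
      DM (tb 1) x L.P * DM (tb 0) x L.P)).trace) =
      ((L.P x * (DM (tb 0) x L.P * DM (tb 1) x L.P -
      DM (tb 1) x L.P * DM (tb 0) x L.P))ᴴ).trace := (Matrix.trace_conjTranspose _).symm
  rw [h1, Matrix.conjTranspose_mul, L.herm, Matrix.conjTranspose_sub, Matrix.conjTranspose_mul,
    Matrix.conjTranspose_mul, Matrix.trace_mul_comm, ← Matrix.trace_neg]
  congr 1
  noncomm_ring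

/-- the (2,0)-part of the Chern curvature is minus the conjugate of the (0,2)-part -/
theorem chern_f20 (L : LB X ι) {a : X → Fin 2 → ℂ} {x : X}
    (ha : DifferentiableAt ℝ (loc1 0 (chartAt C2 x) a) (chartAt C2 x x)) :
    (L.chern a).f20 x = -conj ((L.chern a).f02 x) := by
  have hd : ∀ i, DifferentiableAt ℝ (fun z => loc1 0 (chartAt C2 x) a z i) (chartAt C2 x x) :=
    fun i => differentiableAt_pi.1 ha i
  have h1 : del10 (fun y i => -conj (a y i)) x = -conj (dbar1 0 a x) := by
    unfold del10 dbar1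
    simp only [loc10_neg_conj]
    rw [dz_neg, dz_neg, dz_conj (hd 1), dz_conj (hd 0), map_sub]
    ring
  change L.F20 x + del10 (fun y i => -conj (a y i)) x = -conj (L.F02 x + dbar1 0 a x)
  rw [h1, F20_eq_neg_conj, map_add]
  ring

/-- `∂∂̄` in the preferred chart -/
theorem ddb_eq {F : X → ℂ} {x : X} (hN : IsOpen N) (hx : x ∈ N) (hF : ∀ y ∈ N, Sm F y)
    (i j : Fin 2) : ddb F x i j = dz i (dzb j (fun z => F ((chartAt C2 x).symm z)))
      (chartAt C2 x x) := by
  have h1 : ddb F x i j = dz i (fun z => loc1 0 (chartAt C2 x) (dbar0 0 F) z j)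
    (chartAt C2 x x) := rfl
  rw [h1]
  refine dz_congr ?_ i
  filter_upwards [(isOpen_pre (e := chartAt C2 x) hN).mem_nhds (mem_pre hx)] with z hz
  have h2 := (hF _ hz.2).chart (chart_mem_atlas C2 x) ((chartAt C2 x).map_target hz.1)
  rw [(chartAt C2 x).right_inv hz.1] at h2
  have h3 := loc1_dbar0 (κ := 0) (chart_mem_atlas C2 x) hz.1 (s := F)
      (by rw [LB.loc0_zero]; exact h2.differentiableAt (by simp)) j
  rw [h3, LB.loc0_zero]
  rfl

theorem FrameAt.sm_log {y : X} (h : FrameAt L a v y) :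
    Sm (fun y => ((Real.log (‖v y‖ ^ 2) : ℝ) : ℂ)) y := by
  have hsm : ∀ k, Sm (fun y => v y k) y := fun k => sm_euclid.1 h.sm k
  have h1 : Sm (fun y => nsqv (fun k => v y k)) y :=
    Sm.sum fun j _ => (hsm j).mul (hsm j).conj
  have h2 : ContDiffAt ℝ ∞ (fun z => ‖v ((chartAt C2 y).symm z)‖ ^ 2) (chartAt C2 y y) := by
    have h3 := Complex.reCLM.contDiff.contDiffAt.comp _ h1
    refine h3.congr_of_eventuallyEq (Eventually.of_forall fun z => ?_)
    simp only [Function.comp]
    rw [nsqv_eq, norm_sq_euclid, Complex.reCLM_apply, Complex.ofReal_re]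
  have h4 : ‖v ((chartAt C2 y).symm (chartAt C2 y y))‖ ^ 2 ≠ 0 := by
    rw [(chartAt C2 y).left_inv (mem_chart_source C2 y)]
    have := norm_pos_iff.2 h.ne
    positivity
  exact Complex.ofRealCLM.contDiff.contDiffAt.comp _ (h2.log h4)

/-- (1,1)-part -/
theorem frame11 (hN : IsOpen N) (h : ∀ y ∈ N, FrameAt L a v y) {x : X} (hx : x ∈ N) :
    (L.chern a).f11 x = -ddb (fun y => ((Real.log (‖v y‖ ^ 2) : ℝ) : ℂ)) x := by
  have he := chart_mem_atlas C2 x
  have hz := mem_pre hx
  have hU := isOpen_pre (e := chartAt C2 x) hN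
  have hu := comp_contDiffOn h he
  have hg : ∀ z ∈ (chartAt C2 x).target ∩ (chartAt C2 x).symm ⁻¹' N,
    gg (comp (chartAt C2 x) v) z ≠ 0 := fun z hz => comp_gg h hz
  have h0 : ∀ i, (fun z => loc1 0 (chartAt C2 x) a z i) =ᶠ[𝓝 (chartAt C2 x x)] fun z =>
      -∑ k, ww (comp (chartAt C2 x) v) k z * dzb i (comp (chartAt C2 x) v k) z := by
    intro i
    filter_upwards [hU.mem_nhds hz] with z hz'
    exact loc1_a h he hz' i
  ext i j
  have h1 : (L.chern a).f11 x i j = L.F11 x i j +
      (dz i (fun z => loc1 0 (chartAt C2 x) a z j) (chartAt C2 x x) +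
      -dzb j (fun z => loc10 (chartAt C2 x) (fun y i => -conj (a y i)) z i) (chartAt C2 x x)) :=
    rfl
  have h2 : (fun z => loc10 (chartAt C2 x) (fun y i => -conj (a y i)) z i) =ᶠ[𝓝 (chartAt C2 x x)]
      fun z => conj (∑ k, ww (comp (chartAt C2 x) v) k z * dzb i (comp (chartAt C2 x) v k) z) := by
    filter_upwards [h0 i] with z hz'
    rw [loc10_neg_conj, hz', map_neg, neg_neg]
  have h3 : (-ddb (fun y => ((Real.log (‖v y‖ ^ 2) : ℝ) : ℂ)) x) i j =
      -dzb j (fun y => (gg (comp (chartAt C2 x) v) y)⁻¹ * dz i (gg (comp (chartAt C2 x) v)) y)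
        (chartAt C2 x x) := by
    rw [Matrix.neg_apply, ddb_eq hN hx (fun y hy => (h y hy).sm_log)]
    have hF : ContDiffAt ℝ 2 (fun z => ((Real.log (‖v ((chartAt C2 x).symm z)‖ ^ 2) : ℝ) : ℂ))
        (chartAt C2 x x) := (h x hx).sm_log.of_le two_le_infty
    rw [dz_dzb_comm hF]
    congr 1
    refine dzb_congr ?_ j
    filter_upwards [hU.mem_nhds hz] with z hz'
    rw [← dz_log_gg hU hu hg hz']
    congr 1
    funext w
    rw [norm_sq_euclid]
    rfl
  rw [h1, h3, ← coord11 hU hu hg hz i j, F11_eq, curP_of_frame hN h hx, dz_congr (h0 j),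
    dzb_congr h2, dz_neg]
  have h4 : ∀ (k : ι), (tz i) (fderiv ℝ (ww (comp (chartAt C2 x) v) k) (chartAt C2 x x)) =
      dz i (ww (comp (chartAt C2 x) v) k) (chartAt C2 x x) := fun _ => rfl
  have h5 : ∀ (k : ι), (tb j) (fderiv ℝ (ww (comp (chartAt C2 x) v) k) (chartAt C2 x x)) =
      dzb j (ww (comp (chartAt C2 x) v) k) (chartAt C2 x x) := fun _ => rfl
  have h6 : ∀ (k : ι), (tz i) (fderiv ℝ (comp (chartAt C2 x) v k) (chartAt C2 x x)) =
      dz i (comp (chartAt C2 x) v k) (chartAt C2 x x) := fun _ => rfl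
  have h7 : ∀ (k : ι), (tb j) (fderiv ℝ (comp (chartAt C2 x) v k) (chartAt C2 x x)) =
      dzb j (comp (chartAt C2 x) v k) (chartAt C2 x x) := fun _ => rfl
  simp only [h4, h5, h6, h7]
  ring

/-- **FRAME LEMMA**: the Chern curvature in a holomorphic frame. -/
theorem frame_chern (hN : IsOpen N) (h : ∀ y ∈ N, FrameAt L a v y) {x : X} (hx : x ∈ N) :
    (L.chern a).f20 x = 0 ∧
      (L.chern a).f11 x = -ddb (fun y => ((Real.log (‖v y‖ ^ 2) : ℝ) : ℂ)) x ∧
      (L.chern a).f02 x = 0 := by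
  have h02 : (L.chern a).f02 x = 0 := frame02 hN h hx
  refine ⟨?_, frame11 hN h hx, h02⟩
  have hd : DifferentiableAt ℝ (loc1 0 (chartAt C2 x) a) (chartAt C2 x x) :=
    ((loc1_a_contDiffOn hN h (chart_mem_atlas C2 x)).contDiffAt
      ((isOpen_pre hN).mem_nhds (mem_pre hx))).differentiableAt (by simp)
  rw [chern_f20 L hd, h02, map_zero, neg_zero]

end frame

end Vale.Agent.P267.H451
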