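import Vale.Agent.P267.H451.Frame

/-!
# P267 / H451: gluing a line bundle from local frames

`GlueData X ι A`: smooth nowhere zero functions `v α` on the open sets `U α` covering `X`, with
holomorphic transition factors. The lines spanned by the `v α` form a projector line bundle
`G.L` with holomorphic structure `G.a` such that all `v α` are holomorphic frames.
-/

set_option linter.unusedVariables false
set_option linter.unusedSectionVars false

open scoped Manifold ContDiff ComplexConjugate Matrix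
open Set Filter Topology

noncomputable section

namespace Vale.Agent.P267.H451

open Vale.Agent.P267.FL

variable {X : Type*} [TopologicalSpace X] [ChartedSpace C2 X]
variable {ι : Type} [Fintype ι] [DecidableEq ι] {A : Type*}

/-- local frames with holomorphic transition functions -/
structure GlueData (X : Type*) [TopologicalSpace X] [ChartedSpace C2 X] (ι : Type) [Fintype ι]
    [DecidableEq ι] (A : Type*) where
  U : A → Set X
  v : A → X → EuclideanSpace ℂ ι
  isOpen : ∀ α, IsOpen (U α)
  cover : ∀ x, ∃ α, x ∈ U α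
  sm : ∀ α, ∀ y ∈ U α, Sm (v α) y
  ne : ∀ α, ∀ y ∈ U α, v α y ≠ 0
  change : ∀ α β, ∃ c : X → ℂ, ∀ y ∈ U α ∩ U β, Hol c y ∧ v α y = c y • v β y

namespace GlueData

variable (G : GlueData X ι A)

/-- an index for every point -/
def idx (x : X) : A := (G.cover x).choose

theorem idx_mem (x : X) : x ∈ G.U (G.idx x) := (G.cover x).choose_spec

/-- the projector -/
def P (y : X) : Matrix ι ι ℂ := proj1 fun k => G.v (G.idx y) y k

/-- the holomorphic structure -/
def a (y : X) (i : Fin 2) : ℂ :=
  -∑ k, conj (G.v (G.idx y) y k) / nsqv (fun k => G.v (G.idx y) y k) *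
    dbar0 0 (fun z => G.v (G.idx y) z k) y i

theorem P_eq {y : X} {β : A} (hy : y ∈ G.U β) : G.P y = proj1 fun k => G.v β y k := by
  obtain ⟨c, hc⟩ := G.change (G.idx y) β
  have h := (hc y ⟨G.idx_mem y, hy⟩).2
  have hc0 : c y ≠ 0 := by
    intro h0
    apply G.ne _ y (G.idx_mem y)
    rw [h, h0, zero_smul]
  have h1 : (fun k => G.v (G.idx y) y k) = c y • fun k => G.v β y k := by
    funext k
    rw [h]
    rfl
  unfold P
  rw [h1, proj1_smul hc0]

theorem a_eq {y : X} {β : A} (hy : y ∈ G.U β) (i : Fin 2) :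
    G.a y i = -∑ k, conj (G.v β y k) / nsqv (fun k => G.v β y k) *
      dbar0 0 (fun z => G.v β z k) y i := by
  obtain ⟨c, hc⟩ := G.change (G.idx y) β
  have hcy := (hc y ⟨G.idx_mem y, hy⟩).1
  have h := (hc y ⟨G.idx_mem y, hy⟩).2
  have hc0 : c y ≠ 0 := by
    intro h0
    apply G.ne _ y (G.idx_mem y)
    rw [h, h0, zero_smul]
  have h1 : ∀ k, dbar0 0 (fun z => G.v (G.idx y) z k) y i =
      c y * dbar0 0 (fun z => G.v β z k) y i := by
    intro k
    have h2 : (fun z => G.v (G.idx y) z k) =ᶠ[𝓝 y] fun z => c z • G.v β z k := by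
      filter_upwards [((G.isOpen _).inter (G.isOpen β)).mem_nhds ⟨G.idx_mem y, hy⟩] with z hz
      rw [(hc z hz).2]
      rfl
    rw [dbar0_congr h2, dbar0_smul hcy.sm (sm_euclid.1 (G.sm β y hy) k), hcy.dbar0 i]
    simp
  have h2 : ∀ k, G.v (G.idx y) y k = c y * G.v β y k := fun k => by rw [h]; rfl
  have h3 : nsqv (fun k => c y * G.v β y k) = (c y * conj (c y)) * nsqv fun k => G.v β y k := by
    unfold nsqv
    rw [Finset.mul_sum]
    refine Finset.sum_congr rfl fun k _ => ?_
    rw [map_mul]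
    ring
  unfold a
  simp only [h1, h2, h3, map_mul]
  congr 1
  refine Finset.sum_congr rfl fun k _ => ?_
  have hcc : conj (c y) ≠ 0 := by simpa using hc0
  have hn := nsqv_ne (ofLp_ne (G.ne β y hy))
  field_simp

variable [IsManifold 𝓘(ℂ, C2) ω X]

/-- the glued line bundle -/
def L : LB X ι where
  P := G.P
  smooth i j := by
    refine reg0_of_sm fun x => ?_
    obtain ⟨β, hβ⟩ := G.cover x
    have hsm : ∀ k, Sm (fun y => G.v β y k) x := fun k => sm_euclid.1 (G.sm β x hβ) k
    have h1 : Sm (fun y => nsqv (fun k => G.v β y k)) x :=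
      Sm.sum fun j _ => (hsm j).mul (hsm j).conj
    have h2 : Sm (fun y => G.v β y i * (conj (G.v β y j) / nsqv (fun k => G.v β y k))) x :=
      (hsm i).mul ((hsm j).conj.div h1 (nsqv_ne (ofLp_ne (G.ne β x hβ))))
    refine h2.congr ?_
    filter_upwards [(G.isOpen β).mem_nhds hβ] with y hy
    rw [G.P_eq hy]
    rfl
  herm x := proj1_herm _
  idem x := proj1_idem (ofLp_ne (G.ne _ x (G.idx_mem x)))
  tr x := proj1_trace (ofLp_ne (G.ne _ x (G.idx_mem x)))

theorem frameAt {y : X} {β : A} (hy : y ∈ G.U β) : FrameAt G.L G.a (G.v β) y :=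
  frameAt_of (G.sm β y hy) (G.ne β y hy) (G.P_eq hy) fun i => G.a_eq hy i

end GlueData

section

variable [IsManifold 𝓘(ℂ, C2) ω X] {L : LB X ι} {a : X → Fin 2 → ℂ}

/-- local frames give a holomorphic structure -/
theorem isHol_of_frames (h : ∀ x, ∃ v : X → EuclideanSpace ℂ ι, ∃ N, IsOpen N ∧ x ∈ N ∧
    ∀ y ∈ N, FrameAt L a v y) : L.IsHol a := by
  constructor
  · intro e he z hz
    obtain ⟨v, N, hN, hx, hv⟩ := h (e.symm z)
    exact ((loc1_a_contDiffOn hN hv he).contDiffAt ((isOpen_pre hN).mem_nhds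
      ⟨hz, hx⟩)).contDiffWithinAt
  · intro x
    obtain ⟨v, N, hN, hx, hv⟩ := h x
    rw [add_comm]
    exact frame02 hN hv hx

/-- a holomorphic function times a holomorphic frame is a holomorphic section -/
theorem FrameAt.db0_smul {v : X → EuclideanSpace ℂ ι} {y : X} (h : FrameAt L a v y) {f : X → ℂ}
    (hf : Hol f y) (i : Fin 2) : L.db0 a 0 (fun z => f z • v z) y i = 0 := by
  have h1 := h.hol i
  unfold LB.db0 at h1 ⊢
  rw [dbar0_smul hf.sm h.sm, hf.dbar0, zero_smul, add_zero]
  have h2 : LB.act (L.P y) (f y • dbar0 0 v y i) = f y • LB.act (L.P y) (dbar0 0 v y i) := by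
    ext k
    simp only [LB.act, PiLp.smul_apply, WithLp.ofLp_smul, Matrix.mulVec_smul, Pi.smul_apply]
  rw [h2, smul_comm (a y i), ← smul_add, h1, smul_zero]

theorem db0_congr {s t : X → EuclideanSpace ℂ ι} {y : X} (h : s =ᶠ[𝓝 y] t) (i : Fin 2) :
    L.db0 a 0 s y i = L.db0 a 0 t y i := by
  unfold LB.db0
  rw [dbar0_congr h, h.eq_of_nhds]

end

end Vale.Agent.P267.H451
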